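import Vale.Agent.P345.Rec

/-- Matiyasevich's single-fold conjecture: every recursively enumerable set of vectors of natural
numbers has a single-fold Diophantine representation. -/
theorem Vale.Agent.Results.P345.SingleFold.result :
    ∀ (n : ℕ), 1 ≤ n → ∀ S : Set (Fin n → ℕ), REPred (fun a => a ∈ S) →
      ∃ (m : ℕ) (P : MvPolynomial (Fin n ⊕ Fin m) ℤ), ∀ a : Fin n → ℕ,
        (a ∈ S ↔ ∃ w : Fin m → ℕ,
          MvPolynomial.eval (Sum.elim (fun i => (a i : ℤ)) (fun j => (w j : ℤ))) P = 0) ∧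
        {w : Fin m → ℕ |
          MvPolynomial.eval (Sum.elim (fun i => (a i : ℤ)) (fun j => (w j : ℤ))) P = 0}.Subsingleton :=
  fun _ _ _ h => (Vale.Agent.P345.re_sf h).fin
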